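import Vale.Agent.P245.H436.InstC

/-!
# P245, row INST (third copy, helper436), part D: the instance of `Abs` and `StmtK`
-/

set_option linter.all false

open MeasureTheory Filter Topology Set
open scoped NNReal ENNReal ContDiff
open Vale.Agent.P227.M Vale.Agent.P227.M.K814 Vale.Agent.P254.SN

namespace Vale.Agent.P245.H436

open Vale.Agent.P245.K
open Vale.Agent.P245.H464 (TE Lt mu mu_ac ac_mu memLp_iff inner_toLp integral_mu integrable_mu
  exists_meas)

variable {n : ℕ} {V : E n → ℝ} {t : E n → Matrix (Fin n) (Fin n) ℝ} {c C : ℝ}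

theorem BG_symm {G : E n → Matrix (Fin n) (Fin n) ℝ} (hG : ∀ x i j, G x i j = G x j i)
    (u v : Fin n → E n → ℝ) : BG V G u v = BG V G v u := by
  unfold BG
  congr 1
  funext x
  rw [Finset.sum_comm]
  refine Finset.sum_congr rfl fun i _ => Finset.sum_congr rfl fun j _ => ?_
  rw [hG x j i]; ring

/-- the data of one level of the chain -/
structure Lvl (V : E n → ℝ) (t : E n → Matrix (Fin n) (Fin n) ℝ) (c M σ : ℝ) (k : ℕ)
    (G G' AG : E n → Matrix (Fin n) (Fin n) ℝ) (DG : Fin n → E n → Matrix (Fin n) (Fin n) ℝ) : Prop where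
  mf : ∃ B, MF V G DG c B ∧ ∀ᵐ x, ∀ i j, |AG x i j| ≤ B
  dom : ∀ i j, Dom V t (fun x => G x i j) (fun a x => DG a x i j) (fun x => AG x i j)
  ag : ∀ᵐ x, ∀ i j, AG x i j = (k : ℝ) * (G' x i j - G x i j)
  bm : ∀ i j, Bm (fun x => G x i j) M
  bm' : ∀ i j, Bm (fun x => G' x i j) M
  cs : CS t G DG σ
  s0 : 0 ≤ σ

theorem Lvl.key {M σ : ℝ} {k : ℕ} {G G' AG : E n → Matrix (Fin n) (Fin n) ℝ}
    {DG : Fin n → E n → Matrix (Fin n) (Fin n) ℝ} (hId : StmtIdent) (hB : Base V t c C)
    (h : Lvl V t c M σ k G G' AG DG)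
    {u Au v Av : Fin n → E n → ℝ} {Du Dv : Fin n → Fin n → E n → ℝ}
    (hu : ∀ i, Dom V t (u i) (Du i) (Au i)) (hv : ∀ i, Dom V t (v i) (Dv i) (Av i)) :
    2 * KG V t G Du Dv = BG V G u Av + BG V G Au v - k * (BG V G' u v - BG V G u v) ∧
    (BG V G Au v - KG V t G Du Dv) ^ 2 ≤ σ * KG V t G Du Du * BG V G v v := by
  have hV : Continuous V := hB.V2.continuous
  obtain ⟨B, hmf, hAG⟩ := h.mf
  obtain ⟨h1, h2⟩ := hId n V t c C hB c B G AG DG hmf h.dom hAG u Au v Av Du Dv hu hv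
  refine ⟨?_, h2 σ h.s0 h.cs⟩
  rw [h1, BG_sub hV h.bm' h.bm h.ag (fun i => l2m hV (dl2u (hu i))) (fun i => l2m hV (dl2u (hv i)))]

theorem stmtK_of (hAbs : StmtAbs) (hCh : StmtChain) (hId : StmtIdent) (hF : StmtForm)
    (hL : K.StmtLin) (hGap : StmtGap) : StmtK := by
  obtain ⟨Ca, hCa, hAbs⟩ := hAbs
  refine ⟨2 * Ca, by positivity, fun n V t c C hB hI z Az Dz hz hz0 => ?_⟩
  have hV : Continuous V := hB.V2.continuous
  have hint : Integrable (fun x => Real.exp (-V x)) := hB.int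
  haveI : IsFiniteMeasure (mu V) := isFiniteMeasure_withDensity_ofReal hint.2
  have hone : MemLp (fun _ : E n => (1 : ℝ)) 2 (mu V) := memLp_const 1
  obtain ⟨Bk, G, AG, DG, hG0, hmf, hdom, hAGb, hrec, hale, hcs, hdec, ⟨M, hM⟩, hlim⟩ := hCh n V t c C hB
  have hrel := rel_GA hB hF hL
  have hR := hrel.pi n
  have hbm : ∀ k i j, Bm (fun x => G k x i j) M := fun k i j =>
    ⟨((hmf k).h1 i j).u2.1, by filter_upwards [hM k] with x hx using hx i j⟩
  have hsym : ∀ k x i j, G k x i j = G k x j i := fun k => (hmf k).symm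
  have hlvl : ∀ k : ℕ, Lvl V t c M (6 / (((k + 1 : ℕ) : ℝ) + 2)) (k + 1) (G (k + 1)) (G k) (AG (k + 1))
      (DG (k + 1)) := by
    intro k
    refine ⟨⟨Bk (k + 1), hmf (k + 1), hAGb (k + 1)⟩, hdom (k + 1), ?_, hbm (k + 1), hbm k,
      hcs (k + 1) (Nat.succ_pos k), by positivity⟩
    filter_upwards [hrec k] with x hx i j
    have h1 := hx i j
    have h2 : ((k : ℝ) + 1) ≠ 0 := by positivity
    rw [← h1]
    push_cast
    field_simp
    ring
  -- the abstract data
  set J : ℝ → HH V →L[ℝ] HH V := hR.J with hJ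
  set B : ℕ → HH V →L[ℝ] HH V →L[ℝ] ℝ := fun k => BF V hV (hbm k) with hBdef
  have hfun : ∀ k {x y : HH V} {u v : Fin n → E n → ℝ},
      (∀ i, ((x i : MeasureTheory.Lp ℝ 2 (mu V)) : E n → ℝ) =ᵐ[volume] u i) →
      (∀ i, ((y i : MeasureTheory.Lp ℝ 2 (mu V)) : E n → ℝ) =ᵐ[volume] v i) → B k x y = BG V (G k) u v :=
    fun k x y u v hu hv => BF_fun hV (hbm k) hu hv
  have hcoe : ∀ x : HH V, ∀ i, MemLp ((x i : MeasureTheory.Lp ℝ 2 (mu V)) : E n → ℝ) 2 (mu V) :=
    fun x i => MeasureTheory.Lp.memLp (x i)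
  have hbsym : ∀ k x y, B k x y = B k y x := fun k x y => by
    rw [hfun k (fun i => ae_eq_rfl) (fun i => ae_eq_rfl), hfun k (fun i => ae_eq_rfl) (fun i => ae_eq_rfl)]
    exact BG_symm (hsym k) _ _
  have hgaone : GA V t (hone.toLp _) 0 := by
    obtain ⟨-, -, -, -, -, L6⟩ := hL n V t c C hB
    exact ⟨_, _, _, L6, toLp_ae hV hone, (ac_mu hV).ae_eq (MeasureTheory.Lp.coeFn_zero ℝ 2 (mu V))⟩
  have hA : Abs J B (H0 V hone) := by
    refine
    { sym := fun s hs x y => hR.J_sym hs x y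
      r1 := fun s hs z y h => hR.J_eq hs (hR.J_one.1 h)
      r2 := fun s hs x => hR.J_one.2 (hR.J_spec hs x)
      pos := fun z y h => hR.mono z y (hR.J_one.1 h)
      dense := fun x => hR.J_tendsto x
      inv := ?_
      closed := H0_closed hone
      gap := ?_
      bsym := hbsym
      bpos := ?_
      h1 := ?_
      bdd := ?_
      h4 := ?_
      hK := ?_
      h2 := ?_ }
    · intro s hs x hx i
      have h1 := hR.J_spec hs x i
      have h2 := hrel.symm _ _ _ _ h1 hgaone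
      rw [inner_zero_right] at h2
      have h3 : (s⁻¹ • (x - hR.J s x)) i = s⁻¹ • (x i - (hR.J s x) i) := rfl
      rw [h3, real_inner_smul_left, inner_sub_left] at h2
      have h4 : inner ℝ (x i) (hone.toLp _) = 0 := by rw [real_inner_comm]; exact hx i
      rw [h4] at h2
      have h5 : inner ℝ ((hR.J s x) i) (hone.toLp (fun _ : E n => (1 : ℝ))) = 0 := by
        have h6 : s⁻¹ ≠ 0 := inv_ne_zero hs.ne'
        have h7 := (mul_eq_zero.1 h2).resolve_left h6
        linarith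
      rw [real_inner_comm]
      exact h5
    · intro z' y' h hz'
      have h1 := hR.J_one.1 h
      have e1 : ‖z'‖ ^ 2 = ∑ i, ‖z' i‖ ^ 2 := by
        rw [PiLp.norm_sq_eq_of_L2]
      rw [e1, PiLp.inner_apply]
      refine Finset.sum_le_sum fun i _ => ?_
      obtain ⟨u, Du, Au, hd, h2, h3⟩ := h1 i
      have h4 : I V u = 0 := by
        have h5 := hz' i
        rw [inner_ae hV (toLp_ae hV hone) h2] at h5
        simpa using h5
      have h6 := hGap n V t c C hB u Au Du hd h4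
      rw [← real_inner_self_eq_norm_sq, inner_ae hV h2 h2, real_inner_comm, inner_ae hV h2 h3]
      have e2 : (fun x => u x * u x) = fun x => u x ^ 2 := by funext x; ring
      rw [e2]
      exact h6
    · intro k x
      rw [hfun k (fun i => ae_eq_rfl) (fun i => ae_eq_rfl)]
      unfold BG I
      refine integral_nonneg_of_ae ?_
      filter_upwards [mf_psd (hmf k)] with y hy
      exact mul_nonneg (hy _) (Real.exp_pos _).le
    · intro k hk x
      rw [hfun (k - 1) (fun i => ae_eq_rfl) (fun i => ae_eq_rfl), hfun k (fun i => ae_eq_rfl) (fun i => ae_eq_rfl)]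
      exact BG_mono hV (hbm (k - 1)) (hbm k) (hdec k hk) (hcoe x)
    · refine ⟨∑ i : Fin n, ∑ j : Fin n, |M|, fun k x => ?_⟩
      have e0 : B k x x = ∑ i, ∑ j, inner ℝ (TM V hV (hbm k i j) (x i)) (x j) := BF_apply hV (hbm k) x x
      rw [e0, Finset.sum_mul]
      refine Finset.sum_le_sum fun i _ => ?_
      rw [Finset.sum_mul]
      refine Finset.sum_le_sum fun j _ => ?_
      have n1 : ‖x i‖ ≤ ‖x‖ := PiLp.norm_apply_le x i
      have n2 : ‖x j‖ ≤ ‖x‖ := PiLp.norm_apply_le x j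
      calc inner ℝ (TM V hV (hbm k i j) (x i)) (x j) ≤ ‖TM V hV (hbm k i j) (x i)‖ * ‖x j‖ :=
            real_inner_le_norm _ _
        _ ≤ (|M| * ‖x‖) * ‖x‖ := by
            refine mul_le_mul ?_ n2 (norm_nonneg _) (by positivity)
            refine (TM_norm hV (hbm k i j) (x i)).trans ?_
            exact mul_le_mul (le_abs_self M) n1 (norm_nonneg _) (abs_nonneg _)
        _ = |M| * ‖x‖ ^ 2 := by ring
    · intro x
      have e0 : ∀ k, B k x x = ∑ i, ∑ j, inner ℝ (TM V hV (hbm k i j) (x i)) (x j) := fun k =>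
        BF_apply hV (hbm k) x x
      simp only [e0]
      have e1 : ‖x‖ ^ 2 = ∑ i, ∑ j, (if i = j then (1 : ℝ) else 0) * inner ℝ (x i) (x j) := by
        rw [PiLp.norm_sq_eq_of_L2]
        refine Finset.sum_congr rfl fun i _ => ?_
        simp
      rw [e1]
      refine tendsto_finsetSum _ fun i _ => tendsto_finsetSum _ fun j _ => ?_
      have h1 := hlim i j
      have h2 : (fun k => I V (fun x => (G k x i j - (if i = j then (1 : ℝ) else 0)) ^ 2)) =
          fun m => I V (fun x => ((fun x => G m x i j) x - (fun _ => Ex V (fun x => t x i j)) x) ^ 2) := by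
        funext m
        simp only [ex_t hB hI i j]
      refine weak hV hint (fun k => hbm k i j) _ ?_ (x i) (x j)
      rw [h2]
      exact h1
    · intro k hk z' y' h
      obtain ⟨m, rfl⟩ : ∃ m, k = m + 1 := ⟨k - 1, by omega⟩
      have h1 := hR.J_one.1 h
      choose u Du Au hd h2 h3 using h1
      obtain ⟨k1, -⟩ := (hlvl m).key hId hB hd hd
      have h4 := KG_nonneg hB (mf_psd (hmf (m + 1))) Du
      rw [Nat.add_sub_cancel, hfun (m + 1) h2 h3, hfun (m + 1) h2 h2, hfun m h2 h2]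
      rw [BG_symm (hsym (m + 1)) Au u] at k1
      push_cast at k1 ⊢
      nlinarith [k1, h4]
    · intro k hk z' y' e' w' h hh
      obtain ⟨m, rfl⟩ : ∃ m, k = m + 1 := ⟨k - 1, by omega⟩
      have h1 := hR.J_one.1 h
      have h1' := hR.J_one.1 hh
      choose u Du Au hd h2 h3 using h1
      choose v Dv Av hd' h2' h3' using h1'
      obtain ⟨k1, k2⟩ := (hlvl m).key hId hB hd hd'
      obtain ⟨k3, -⟩ := (hlvl m).key hId hB hd hd
      rw [Nat.add_sub_cancel, hfun (m + 1) h3 h2', hfun (m + 1) h2 h3', hfun (m + 1) h2 h2', hfun m h2 h2',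
        hfun (m + 1) h2 h3, hfun (m + 1) h2 h2, hfun m h2 h2, hfun (m + 1) h2' h2']
      rw [BG_symm (hsym (m + 1)) Au u] at k3
      have e1 : KG V t (G (m + 1)) Du Dv = 1 / 2 * (BG V (G (m + 1)) u Av + BG V (G (m + 1)) Au v +
          ((m + 1 : ℕ) : ℝ) * (BG V (G (m + 1)) u v - BG V (G m) u v)) := by
        linarith
      have e2 : KG V t (G (m + 1)) Du Du = BG V (G (m + 1)) u Au +
          ((m + 1 : ℕ) : ℝ) / 2 * (BG V (G (m + 1)) u u - BG V (G m) u u) := by
        linarith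
      rw [e1, e2] at k2
      exact k2
  -- application
  have hzL : ∀ i, MemLp (z i) 2 (mu V) := fun i => l2m hV (dl2u (hz i))
  have hyL : ∀ i, MemLp (Az i) 2 (mu V) := fun i => l2m hV (dl2A (hz i))
  set zL : HH V := WithLp.toLp 2 (fun i => (hzL i).toLp (z i)) with hzLd
  set yL : HH V := WithLp.toLp 2 (fun i => (hyL i).toLp (Az i)) with hyLd
  have hz2 : ∀ i, ((zL i : MeasureTheory.Lp ℝ 2 (mu V)) : E n → ℝ) =ᵐ[volume] z i := fun i => toLp_ae hV (hzL i)
  have hy2 : ∀ i, ((yL i : MeasureTheory.Lp ℝ 2 (mu V)) : E n → ℝ) =ᵐ[volume] Az i := fun i => toLp_ae hV (hyL i)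
  have hRz : RP n (GA V t) zL yL := fun i => ⟨z i, Dz i, Az i, hz i, hz2 i, hy2 i⟩
  have h0 : zL ∈ H0 V hone := fun i => by
    rw [inner_ae hV (toLp_ae hV hone) (hz2 i)]
    simpa using hz0 i
  have hfin := hAbs (HH V) J B (H0 V hone) hA zL yL (hR.J_one.2 hRz) h0
  obtain ⟨k1, -⟩ := (hlvl 0).key hId hB hz hz
  rw [BG_symm (hsym (0 + 1)) Az z] at k1
  rw [hfun 1 hz2 hy2, hfun 1 hz2 hz2, hfun 0 hz2 hz2] at hfin
  have hn : ‖yL‖ ^ 2 = ∑ i, I V (fun x => Az i x ^ 2) := by
    rw [PiLp.norm_sq_eq_of_L2]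
    refine Finset.sum_congr rfl fun i _ => ?_
    rw [← real_inner_self_eq_norm_sq, inner_ae hV (hy2 i) (hy2 i)]
    congr 1
    funext x; ring
  have hK1 : KG V t (G 1) Dz Dz ≤ Ca * ∑ i, I V (fun x => Az i x ^ 2) := by
    rw [← hn]
    simp only [zero_add, Nat.cast_one, one_mul] at k1
    linarith
  -- comparison of `t` and `G 1`
  obtain ⟨Bt, hBt⟩ := hB.bt
  have hDm : ∀ i a, MemLp (Dz i a) 2 (mu V) := fun i a => l2m hV (dl2D (hz i) a)
  have hiK : ∀ k, Integrable (fun x => (∑ i, ∑ j, G k x i j *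
      ip t (fun y a => Dz i a y) (fun y a => Dz j a y) x) * Real.exp (-V x)) := by
    intro k
    have e : (fun x => (∑ i, ∑ j, G k x i j *
        ip t (fun y a => Dz i a y) (fun y a => Dz j a y) x) * Real.exp (-V x)) =
        fun x => ∑ i, ∑ j, ∑ a, ∑ b, (G k x i j * t x a b) * Dz i a x * Dz j b x * Real.exp (-V x) := by
      funext x
      unfold ip
      rw [Finset.sum_mul]
      refine Finset.sum_congr rfl fun i _ => ?_
      rw [Finset.sum_mul]
      refine Finset.sum_congr rfl fun j _ => ?_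
      rw [Finset.mul_sum, Finset.sum_mul]
      refine Finset.sum_congr rfl fun a _ => ?_
      rw [Finset.mul_sum, Finset.sum_mul]
      exact Finset.sum_congr rfl fun b _ => by ring
    rw [e]
    refine integrable_finsetSum _ fun i _ => integrable_finsetSum _ fun j _ =>
      integrable_finsetSum _ fun a _ => integrable_finsetSum _ fun b _ => ?_
    refine int_mul hV (M := |M| * |Bt|) (φ := fun x => G k x i j * t x a b) ⟨(hbm k i j).1.mul
      (tll hB.toTF a b).continuous.measurable, ?_⟩ (hDm i a) (hDm j b)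
    filter_upwards [(hbm k i j).2] with x hx
    rw [abs_mul]
    exact mul_le_mul (hx.trans (le_abs_self _)) ((hBt x a b).trans (le_abs_self _)) (abs_nonneg _)
      (abs_nonneg _)
  have hcmp : KG V t t Dz Dz ≤ 2 * KG V t (G 1) Dz Dz := by
    have e0 : KG V t t Dz Dz = KG V t (G 0) Dz Dz := by rw [hG0]
    rw [e0]
    unfold KG I
    rw [← integral_const_mul]
    refine integral_mono_ae (hiK 0) ((hiK 1).const_mul 2) ?_
    filter_upwards [hdec 1 le_rfl] with x hx
    have hP : ∀ v : Fin n → ℝ, 0 ≤ ∑ i, ∑ j, (fun i j => 2 * G 1 x i j - G 0 x i j : Matrix (Fin n) (Fin n) ℝ) i j *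
        v i * v j := by
      intro v
      have h1 := hx v
      have e : ∑ i, ∑ j, (fun i j => 2 * G 1 x i j - G 0 x i j : Matrix (Fin n) (Fin n) ℝ) i j * v i * v j =
          (∑ i, ∑ j, ((1 + 1 / ((1 : ℕ) : ℝ)) • G 1 x) i j * v i * v j) - ∑ i, ∑ j, G 0 x i j * v i * v j := by
        rw [← Finset.sum_sub_distrib]
        refine Finset.sum_congr rfl fun i _ => ?_
        rw [← Finset.sum_sub_distrib]
        refine Finset.sum_congr rfl fun j _ => ?_
        rw [Matrix.smul_apply, smul_eq_mul]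
        push_cast
        ring
      rw [e]
      have h2 : ∑ i, ∑ j, G (1 - 1) x i j * v i * v j = ∑ i, ∑ j, G 0 x i j * v i * v j := rfl
      linarith
    have h3 := psd_kron (hB.symm x) (base_psd hB x) hP (fun i a => Dz i a x)
    have e : ∑ i, ∑ j, (fun i j => 2 * G 1 x i j - G 0 x i j : Matrix (Fin n) (Fin n) ℝ) i j *
        (∑ a, ∑ b, t x a b * Dz i a x * Dz j b x) =
        2 * (∑ i, ∑ j, G 1 x i j * ip t (fun y a => Dz i a y) (fun y a => Dz j a y) x) -
          ∑ i, ∑ j, G 0 x i j * ip t (fun y a => Dz i a y) (fun y a => Dz j a y) x := by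
      rw [Finset.mul_sum, ← Finset.sum_sub_distrib]
      refine Finset.sum_congr rfl fun i _ => ?_
      rw [Finset.mul_sum, ← Finset.sum_sub_distrib]
      refine Finset.sum_congr rfl fun j _ => ?_
      unfold ip
      ring
    rw [e] at h3
    have h4 : (∑ i, ∑ j, G 0 x i j * ip t (fun y a => Dz i a y) (fun y a => Dz j a y) x) ≤
        2 * ∑ i, ∑ j, G 1 x i j * ip t (fun y a => Dz i a y) (fun y a => Dz j a y) x := by linarith
    calc _ ≤ (2 * ∑ i, ∑ j, G 1 x i j * ip t (fun y a => Dz i a y) (fun y a => Dz j a y) x) *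
          Real.exp (-V x) := mul_le_mul_of_nonneg_right h4 (Real.exp_pos _).le
      _ = _ := by ring
  calc KG V t t Dz Dz ≤ 2 * KG V t (G 1) Dz Dz := hcmp
    _ ≤ 2 * (Ca * ∑ i, I V (fun x => Az i x ^ 2)) := by linarith
    _ = 2 * Ca * ∑ i, I V (fun x => Az i x ^ 2) := by ring

end Vale.Agent.P245.H436
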