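import Vale.Agent.P245.H436.Rel

/-!
# P245, row INST (third copy, helper436), part A: the `L²` space, the relation, multiplication
-/

set_option linter.all false

open MeasureTheory Filter Topology Set
open scoped NNReal ENNReal ContDiff
open Vale.Agent.P227.M Vale.Agent.P227.M.K814 Vale.Agent.P254.SN

namespace Vale.Agent.P245.H436

open Vale.Agent.P245.K
open Vale.Agent.P245.H464 (TE Lt mu mu_ac ac_mu memLp_iff inner_toLp integral_mu integrable_mu
  exists_meas)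

/-! ## products -/

section prod
variable {H : Type} [NormedAddCommGroup H] [InnerProductSpace ℝ H] {G : H → H → Prop}

/-- componentwise relation -/
def RP (n : ℕ) (G : H → H → Prop) (z y : PiLp 2 (fun _ : Fin n => H)) : Prop := ∀ i, G (z i) (y i)

theorem Rel.pi (h : Rel G) (n : ℕ) : Rel (RP n G) where
  lin z y z' y' h1 h2 p q i := h.lin _ _ _ _ (h1 i) (h2 i) p q
  mono z y h1 := by
    rw [PiLp.inner_apply]
    exact Finset.sum_nonneg fun i _ => h.mono _ _ (h1 i)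
  symm z y z' y' h1 h2 := by
    rw [PiLp.inner_apply, PiLp.inner_apply]
    exact Finset.sum_congr rfl fun i _ => h.symm _ _ _ _ (h1 i) (h2 i)
  total s hs g := by
    choose z y h1 h2 using fun i => h.total s hs (g i)
    refine ⟨WithLp.toLp 2 z, WithLp.toLp 2 y, fun i => h1 i, ?_⟩
    ext i
    exact h2 i
  uniq y h1 := by
    ext i
    exact h.uniq _ (h1 i)

end prod

/-! ## the relation on `L²(e^{-V})` -/

variable {n : ℕ} {V : E n → ℝ} {t : E n → Matrix (Fin n) (Fin n) ℝ} {c C : ℝ}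

/-- the graph of `A` -/
def GA (V : E n → ℝ) (t : E n → Matrix (Fin n) (Fin n) ℝ) (z y : MeasureTheory.Lp ℝ 2 (mu V)) : Prop :=
  ∃ (u : E n → ℝ) (Du : Fin n → E n → ℝ) (Au : E n → ℝ), Dom V t u Du Au ∧
    (z : E n → ℝ) =ᵐ[volume] u ∧ (y : E n → ℝ) =ᵐ[volume] Au

theorem inner_ae (hV : Continuous V) {f g : MeasureTheory.Lp ℝ 2 (mu V)} {u v : E n → ℝ}
    (hu : (f : E n → ℝ) =ᵐ[volume] u) (hv : (g : E n → ℝ) =ᵐ[volume] v) :
    inner ℝ f g = I V (fun x => u x * v x) := by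
  rw [L2.inner_def]
  unfold I
  rw [← integral_mu hV]
  refine integral_congr_ae ?_
  filter_upwards [(mu_ac V).ae_eq hu, (mu_ac V).ae_eq hv] with x h1 h2
  rw [h1, h2]
  simp [mul_comm]

theorem l2m (hV : Continuous V) {f : E n → ℝ} (h : K.L2 V f) : MemLp f 2 (mu V) :=
  (memLp_iff hV h.1.aestronglyMeasurable).2 h.2

theorem dl2u {u : E n → ℝ} {Du : Fin n → E n → ℝ} {Au : E n → ℝ} (h : Dom V t u Du Au) :
    K.L2 V u := by obtain ⟨f, hf⟩ := h; exact ⟨hf.mu, hf.iu⟩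

theorem dl2A {u : E n → ℝ} {Du : Fin n → E n → ℝ} {Au : E n → ℝ} (h : Dom V t u Du Au) :
    K.L2 V Au := by obtain ⟨f, hf⟩ := h; exact ⟨hf.mA, hf.iA⟩

theorem dl2D {u : E n → ℝ} {Du : Fin n → E n → ℝ} {Au : E n → ℝ} (h : Dom V t u Du Au) (a : Fin n) :
    K.L2 V (Du a) := by obtain ⟨f, hf⟩ := h; exact ⟨hf.mD a, hf.iD a⟩

theorem toLp_ae (hV : Continuous V) {f : E n → ℝ} (h : MemLp f 2 (mu V)) :
    ((h.toLp f : MeasureTheory.Lp ℝ 2 (mu V)) : E n → ℝ) =ᵐ[volume] f :=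
  (ac_mu hV).ae_eq h.coeFn_toLp

theorem lp_ext (hV : Continuous V) {f g : MeasureTheory.Lp ℝ 2 (mu V)}
    (h : (f : E n → ℝ) =ᵐ[volume] g) : f = g := MeasureTheory.Lp.ext ((mu_ac V).ae_eq h)

theorem add_ae (hV : Continuous V) (f g : MeasureTheory.Lp ℝ 2 (mu V)) :
    ((f + g : MeasureTheory.Lp ℝ 2 (mu V)) : E n → ℝ) =ᵐ[volume] fun x => f x + g x :=
  (ac_mu hV).ae_eq (MeasureTheory.Lp.coeFn_add f g)

theorem smul_ae (hV : Continuous V) (r : ℝ) (f : MeasureTheory.Lp ℝ 2 (mu V)) :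
    ((r • f : MeasureTheory.Lp ℝ 2 (mu V)) : E n → ℝ) =ᵐ[volume] fun x => r * f x :=
  (ac_mu hV).ae_eq (MeasureTheory.Lp.coeFn_smul r f)

theorem lin_ae (hV : Continuous V) (p q : ℝ) (f g : MeasureTheory.Lp ℝ 2 (mu V)) :
    ((p • f + q • g : MeasureTheory.Lp ℝ 2 (mu V)) : E n → ℝ) =ᵐ[volume] fun x => p * f x + q * g x := by
  filter_upwards [add_ae hV (p • f) (q • g), smul_ae hV p f, smul_ae hV q g] with x h1 h2 h3
  rw [h1, h2, h3]

theorem ip_nonneg (hB : Base V t c C) (al : E n → Fin n → ℝ) (x : E n) : 0 ≤ ip t al al x := by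
  have h1 := hB.low x (WithLp.toLp 2 fun a => al x a)
  refine le_trans ?_ h1
  have := hB.lam_pos
  positivity

theorem ip_symm (hB : Base V t c C) (al be : E n → Fin n → ℝ) (x : E n) : ip t al be x = ip t be al x := by
  unfold ip
  rw [Finset.sum_comm]
  refine Finset.sum_congr rfl fun a _ => Finset.sum_congr rfl fun b _ => ?_
  rw [hB.symm x b a]; ring

theorem rel_GA (hB : Base V t c C) (hF : StmtForm) (hL : K.StmtLin) : Rel (GA V t) := by
  have hV : Continuous V := hB.V2.continuous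
  obtain ⟨L1, L2', L3, L4, L5, L6⟩ := hL n V t c C hB
  have hF' := hF n V t c C hB
  refine ⟨?_, ?_, ?_, ?_, ?_⟩
  · rintro z y z' y' ⟨u, Du, Au, hd, h1, h2⟩ ⟨u', Du', Au', hd', h1', h2'⟩ p q
    refine ⟨_, _, _, L1 u Au u' Au' Du Du' hd hd' p q, ?_, ?_⟩
    · filter_upwards [lin_ae hV p q z z', h1, h1'] with x e1 e2 e3
      rw [e1, e2, e3]
    · filter_upwards [lin_ae hV p q y y', h2, h2'] with x e1 e2 e3
      rw [e1, e2, e3]
  · rintro z y ⟨u, Du, Au, hd, h1, h2⟩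
    rw [inner_ae hV h2 h1, hF' u Au Du hd u Du (L2' u Au Du hd)]
    unfold I
    exact integral_nonneg fun x => mul_nonneg (ip_nonneg hB _ x) (Real.exp_pos _).le
  · rintro z y z' y' ⟨u, Du, Au, hd, h1, h2⟩ ⟨u', Du', Au', hd', h1', h2'⟩
    rw [inner_ae hV h2 h1', real_inner_comm, inner_ae hV h2' h1, hF' u Au Du hd u' Du' (L2' u' Au' Du' hd'),
      hF' u' Au' Du' hd' u Du (L2' u Au Du hd)]
    congr 1
    funext x
    exact ip_symm hB _ _ x
  · intro s hs g
    obtain ⟨w, hw, hwe, hwi⟩ := exists_meas hV g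
    obtain ⟨f, u, Du, Au, hd, he⟩ := Vale.Agent.P245.H464.total hB.toTE hw hwi hs
    have hd' : Dom V t u Du Au := ⟨f, hd⟩
    refine ⟨(l2m hV (dl2u hd')).toLp u, (l2m hV (dl2A hd')).toLp Au,
      ⟨u, Du, Au, hd', toLp_ae hV _, toLp_ae hV _⟩, lp_ext hV ?_⟩
    have e0 := lin_ae hV 1 s ((l2m hV (dl2u hd')).toLp u) ((l2m hV (dl2A hd')).toLp Au)
    rw [one_smul] at e0
    filter_upwards [e0, toLp_ae hV (l2m hV (dl2u hd')),
      toLp_ae hV (l2m hV (dl2A hd')), hwe] with x e1 e2 e3 e4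
    rw [e1, e2, e3, e4, one_mul, he x]
  · rintro y ⟨u, Du, Au, hd, h1, h2⟩
    have h0 : u =ᵐ[volume] fun _ => (0 : ℝ) := by
      filter_upwards [h1, (ac_mu hV).ae_eq (MeasureTheory.Lp.coeFn_zero ℝ 2 (mu V))] with x e1 e2
      rw [← e1, e2]; rfl
    have z2 : K.L2 V (fun _ : E n => (0 : ℝ)) := ⟨measurable_const, by simp⟩
    have d0 : Dom V t (fun _ => 0) Du Au :=
      L5 u Au (fun _ => 0) Au Du Du hd z2 (fun a => dl2D hd a) (dl2A hd) h0 (fun a => ae_eq_rfl) ae_eq_rfl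
    have d1 : Dom V t (fun _ => 0) (fun _ _ => 0) (fun _ => 0) := by
      have := L1 _ _ _ _ _ _ L6 L6 0 0
      simpa using this
    have h3 : Au =ᵐ[volume] fun _ => 0 := L4 _ _ _ _ _ d0 d1
    refine lp_ext hV ?_
    filter_upwards [h2, h3, (ac_mu hV).ae_eq (MeasureTheory.Lp.coeFn_zero ℝ 2 (mu V))] with x e1 e2 e3
    rw [e1, e2, e3]; rfl

/-! ## multiplication by a bounded function -/

/-- measurable and bounded a.e. -/
def Bm (φ : E n → ℝ) (M : ℝ) : Prop := Measurable φ ∧ ∀ᵐ x, |φ x| ≤ M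

theorem Bm.memLp {φ : E n → ℝ} {M : ℝ} (h : Bm φ M) {f : E n → ℝ} (hf : MemLp f 2 (mu V)) :
    MemLp (fun x => φ x * f x) 2 (mu V) := by
  refine hf.of_le_mul (c := M) (h.1.aestronglyMeasurable.mul hf.1) ?_
  filter_upwards [(mu_ac V).ae_le h.2] with x hx
  rw [norm_mul]
  exact mul_le_mul_of_nonneg_right hx (norm_nonneg _)

/-- multiplication by `φ` -/
noncomputable def TM (V : E n → ℝ) (hV : Continuous V) {φ : E n → ℝ} {M : ℝ} (h : Bm φ M) :
    MeasureTheory.Lp ℝ 2 (mu V) →L[ℝ] MeasureTheory.Lp ℝ 2 (mu V) :=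
  LinearMap.mkContinuous
    { toFun := fun f => (h.memLp (MeasureTheory.Lp.memLp f)).toLp (fun x => φ x * f x)
      map_add' := fun f g => by
        refine lp_ext hV ?_
        filter_upwards [toLp_ae hV (h.memLp (MeasureTheory.Lp.memLp (f + g))), add_ae hV f g,
          add_ae hV ((h.memLp (MeasureTheory.Lp.memLp f)).toLp (fun x => φ x * f x))
            ((h.memLp (MeasureTheory.Lp.memLp g)).toLp (fun x => φ x * g x)),
          toLp_ae hV (h.memLp (MeasureTheory.Lp.memLp f)),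
          toLp_ae hV (h.memLp (MeasureTheory.Lp.memLp g))] with x e1 e2 e3 e4 e5
        rw [e1, e3, e4, e5, e2, mul_add]
      map_smul' := fun r f => by
        refine lp_ext hV ?_
        rw [RingHom.id_apply]
        filter_upwards [toLp_ae hV (h.memLp (MeasureTheory.Lp.memLp (r • f))), smul_ae hV r f,
          smul_ae hV r ((h.memLp (MeasureTheory.Lp.memLp f)).toLp (fun x => φ x * f x)),
          toLp_ae hV (h.memLp (MeasureTheory.Lp.memLp f))] with x e1 e2 e3 e4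
        rw [e1, e3, e4, e2]; ring } M (fun f => by
      refine MeasureTheory.Lp.norm_le_mul_norm_of_ae_le_mul ?_
      filter_upwards [(h.memLp (MeasureTheory.Lp.memLp f)).coeFn_toLp, (mu_ac V).ae_le h.2] with x e1 e2
      simp only [LinearMap.coe_mk, AddHom.coe_mk]
      rw [e1, norm_mul]
      exact mul_le_mul_of_nonneg_right e2 (norm_nonneg _))

theorem TM_ae (hV : Continuous V) {φ : E n → ℝ} {M : ℝ} (h : Bm φ M)
    {f : MeasureTheory.Lp ℝ 2 (mu V)} {u : E n → ℝ} (hu : (f : E n → ℝ) =ᵐ[volume] u) :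
    ((TM V hV h f : MeasureTheory.Lp ℝ 2 (mu V)) : E n → ℝ) =ᵐ[volume] fun x => φ x * u x := by
  have h1 : TM V hV h f = (h.memLp (MeasureTheory.Lp.memLp f)).toLp (fun x => φ x * f x) := rfl
  rw [h1]
  filter_upwards [toLp_ae hV (h.memLp (MeasureTheory.Lp.memLp f)), hu] with x e1 e2
  rw [e1, e2]

/-- the inner product as a bilinear map -/
noncomputable def inB (H : Type) [NormedAddCommGroup H] [InnerProductSpace ℝ H] : H →L[ℝ] H →L[ℝ] ℝ :=
  LinearMap.mkContinuous₂ (innerₗ H) 1 (fun x y => by simpa using norm_inner_le_norm (𝕜 := ℝ) x y)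

theorem inB_apply {H : Type} [NormedAddCommGroup H] [InnerProductSpace ℝ H] (x y : H) :
    inB H x y = inner ℝ x y := rfl

/-- the vector valued `L²` space -/
abbrev HH (V : E n → ℝ) : Type := PiLp 2 (fun _ : Fin n => MeasureTheory.Lp ℝ 2 (mu V))

/-- coordinate -/
noncomputable def prj (V : E n → ℝ) (i : Fin n) : HH V →L[ℝ] MeasureTheory.Lp ℝ 2 (mu V) :=
  PiLp.proj 2 (fun _ : Fin n => MeasureTheory.Lp ℝ 2 (mu V)) i

/-- the form of a bounded matrix function -/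
noncomputable def BF (V : E n → ℝ) (hV : Continuous V) {G : E n → Matrix (Fin n) (Fin n) ℝ} {M : ℝ}
    (h : ∀ i j, Bm (fun x => G x i j) M) : HH V →L[ℝ] HH V →L[ℝ] ℝ :=
  ∑ i, ∑ j, (inB (MeasureTheory.Lp ℝ 2 (mu V))).bilinearComp ((TM V hV (h i j)).comp (prj V i)) (prj V j)

theorem BF_apply (hV : Continuous V) {G : E n → Matrix (Fin n) (Fin n) ℝ} {M : ℝ}
    (h : ∀ i j, Bm (fun x => G x i j) M) (x y : HH V) :
    BF V hV h x y = ∑ i, ∑ j, inner ℝ (TM V hV (h i j) (x i)) (y j) := by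
  unfold BF
  simp only [ContinuousLinearMap.sum_apply]
  rfl

theorem int_mul {φ : E n → ℝ} {M : ℝ} (hV : Continuous V) (h : Bm φ M) {u v : E n → ℝ}
    (hu : MemLp u 2 (mu V)) (hv : MemLp v 2 (mu V)) :
    Integrable (fun x => φ x * u x * v x * Real.exp (-V x)) := by
  have := (h.memLp hu).integrable_mul hv
  exact (integrable_mu hV _).1 this

theorem BF_fun (hV : Continuous V) {G : E n → Matrix (Fin n) (Fin n) ℝ} {M : ℝ}
    (h : ∀ i j, Bm (fun x => G x i j) M) {x y : HH V} {u v : Fin n → E n → ℝ}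
    (hu : ∀ i, ((x i : MeasureTheory.Lp ℝ 2 (mu V)) : E n → ℝ) =ᵐ[volume] u i)
    (hv : ∀ i, ((y i : MeasureTheory.Lp ℝ 2 (mu V)) : E n → ℝ) =ᵐ[volume] v i) :
    BF V hV h x y = BG V G u v := by
  rw [BF_apply]
  unfold BG I
  have hu2 : ∀ i, MemLp (u i) 2 (mu V) := fun i =>
    (MeasureTheory.Lp.memLp (x i)).ae_eq ((mu_ac V).ae_eq (hu i))
  have hv2 : ∀ i, MemLp (v i) 2 (mu V) := fun i =>
    (MeasureTheory.Lp.memLp (y i)).ae_eq ((mu_ac V).ae_eq (hv i))
  have e : (fun x => (∑ i, ∑ j, G x i j * u i x * v j x) * Real.exp (-V x)) =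
      fun x => ∑ i, ∑ j, G x i j * u i x * v j x * Real.exp (-V x) := by
    funext x
    simp only [Finset.sum_mul]
  rw [e, integral_finsetSum _ fun i _ => integrable_finsetSum _ fun j _ => int_mul hV (h i j) (hu2 i) (hv2 j)]
  refine Finset.sum_congr rfl fun i _ => ?_
  rw [integral_finsetSum _ fun j _ => int_mul hV (h i j) (hu2 i) (hv2 j)]
  refine Finset.sum_congr rfl fun j _ => ?_
  rw [inner_ae hV (TM_ae hV (h i j) (hu i)) (hv j)]
  rfl

end Vale.Agent.P245.H436
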