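import Vale.Agent.P245.H436.InstA

/-!
# P245, row INST (third copy, helper436), part B: the instance of `Abs` and `StmtK`
-/

set_option linter.all false

open MeasureTheory Filter Topology Set
open scoped NNReal ENNReal ContDiff
open Vale.Agent.P227.M Vale.Agent.P227.M.K814 Vale.Agent.P254.SN

namespace Vale.Agent.P245.H436

open Vale.Agent.P245.K
open Vale.Agent.P245.H464 (TE Lt mu mu_ac ac_mu memLp_iff inner_toLp integral_mu integrable_mu
  exists_meas)

variable {n : ℕ} {V : E n → ℝ} {t : E n → Matrix (Fin n) (Fin n) ℝ} {c C : ℝ}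

open scoped MatrixOrder in
theorem psd_sq {T : Matrix (Fin n) (Fin n) ℝ} (hT : ∀ i j, T i j = T j i)
    (hT0 : ∀ v : Fin n → ℝ, 0 ≤ ∑ a, ∑ b, T a b * v a * v b) :
    ∃ b : Matrix (Fin n) (Fin n) ℝ, ∀ i j, T i j = ∑ c, b c i * b c j := by
  have h1 : T.PosSemidef := by
    refine Matrix.PosSemidef.of_dotProduct_mulVec_nonneg ?_ fun v => ?_
    · ext i j
      simpa using (hT j i)
    · have e : star v ⬝ᵥ T.mulVec v = ∑ a, ∑ b, T a b * v a * v b := by
        simp only [star_trivial, dotProduct, Matrix.mulVec, Finset.mul_sum]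
        exact Finset.sum_congr rfl fun a _ => Finset.sum_congr rfl fun b _ => by ring
      rw [e]
      exact hT0 v
  obtain ⟨b, hb⟩ := CStarAlgebra.nonneg_iff_eq_star_mul_self.mp h1.nonneg
  refine ⟨b, fun i j => ?_⟩
  rw [hb, Matrix.mul_apply]
  exact Finset.sum_congr rfl fun c _ => by simp

theorem psd_kron {P T : Matrix (Fin n) (Fin n) ℝ} (hT : ∀ i j, T i j = T j i)
    (hT0 : ∀ v : Fin n → ℝ, 0 ≤ ∑ a, ∑ b, T a b * v a * v b)
    (hP : ∀ v : Fin n → ℝ, 0 ≤ ∑ i, ∑ j, P i j * v i * v j) (w : Fin n → Fin n → ℝ) :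
    0 ≤ ∑ i, ∑ j, P i j * ∑ a, ∑ b, T a b * w i a * w j b := by
  obtain ⟨b, hb⟩ := psd_sq hT hT0
  have e : ∑ i, ∑ j, P i j * ∑ a, ∑ b, T a b * w i a * w j b =
      ∑ c, ∑ i, ∑ j, P i j * (∑ a, b c a * w i a) * (∑ a, b c a * w j a) := by
    have e1 : ∀ i j, P i j * ∑ a, ∑ d, T a d * w i a * w j d =
        ∑ c, P i j * (∑ a, b c a * w i a) * (∑ a, b c a * w j a) := by
      intro i j
      have e2 : ∑ a, ∑ d, T a d * w i a * w j d =
          ∑ c, (∑ a, b c a * w i a) * (∑ a, b c a * w j a) := by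
        simp only [hb, Finset.sum_mul, Finset.mul_sum]
        have e3 : ∀ a, ∑ d, ∑ c, b c a * b c d * w i a * w j d =
            ∑ c, ∑ d, b c a * b c d * w i a * w j d := fun a => Finset.sum_comm
        simp only [e3]
        rw [Finset.sum_comm]
        refine Finset.sum_congr rfl fun c _ => ?_
        rw [Finset.sum_comm]
        exact Finset.sum_congr rfl fun a _ => Finset.sum_congr rfl fun d _ => by ring
      rw [e2, Finset.mul_sum]
      exact Finset.sum_congr rfl fun c _ => by ring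
    simp only [e1]
    have e4 : ∀ i, ∑ j, ∑ c, P i j * (∑ a, b c a * w i a) * (∑ a, b c a * w j a) =
        ∑ c, ∑ j, P i j * (∑ a, b c a * w i a) * (∑ a, b c a * w j a) := fun i => Finset.sum_comm
    simp only [e4]
    exact Finset.sum_comm
  rw [e]
  exact Finset.sum_nonneg fun c _ => hP fun i => ∑ a, b c a * w i a

theorem base_psd (hB : Base V t c C) (x : E n) (v : Fin n → ℝ) :
    0 ≤ ∑ a, ∑ b, t x a b * v a * v b := ip_nonneg hB (fun _ => v) x

/-- weak convergence of the multiplication operators -/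
theorem weak (hV : Continuous V) (hint : Integrable (fun x => Real.exp (-V x)))
    {φ : ℕ → E n → ℝ} {M : ℝ} (h : ∀ k, Bm (φ k) M) (d : ℝ)
    (hT : Tendsto (fun k => I V (fun x => (φ k x - d) ^ 2)) atTop (𝓝 0))
    (f g : MeasureTheory.Lp ℝ 2 (mu V)) :
    Tendsto (fun k => inner ℝ (TM V hV (h k) f) g) atTop (𝓝 (d * inner ℝ f g)) := by
  haveI : IsFiniteMeasure (mu V) := isFiniteMeasure_withDensity_ofReal hint.2
  have m1 : ∀ k, MemLp (φ k) 2 (mu V) := fun k =>
    MemLp.of_bound (h k).1.aestronglyMeasurable M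
      (by filter_upwards [(mu_ac V).ae_le (h k).2] with x hx using hx)
  have m0 : MemLp (fun _ : E n => d) 2 (mu V) := memLp_const d
  have hLp : Tendsto (fun k => (m1 k).toLp (φ k)) atTop (𝓝 (m0.toLp _)) := by
    rw [tendsto_iff_norm_sub_tendsto_zero]
    have e : ∀ k, ‖(m1 k).toLp (φ k) - m0.toLp _‖ = Real.sqrt (I V (fun x => (φ k x - d) ^ 2)) := by
      intro k
      rw [← MemLp.toLp_sub (m1 k) m0, ← Real.sqrt_sq (norm_nonneg (((m1 k).sub m0).toLp _)),
        Vale.Agent.P245.H464.normsq_toLp hV]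
      rfl
    simp only [e]
    have h2 := (Real.continuous_sqrt.tendsto 0).comp hT
    rwa [Real.sqrt_zero] at h2
  have hI : ∀ k, inner ℝ (TM V hV (h k) f) g = ∫ x, φ k x * (f x * g x) ∂(mu V) := by
    intro k
    rw [inner_ae hV (TM_ae hV (h k) ae_eq_rfl) ae_eq_rfl, integral_mu hV]
    unfold I
    refine integral_congr_ae (Eventually.of_forall fun x => ?_)
    simp only
    ring
  have hI0 : d * inner ℝ f g = ∫ x, d * (f x * g x) ∂(mu V) := by
    rw [inner_ae hV (u := f) (v := g) ae_eq_rfl ae_eq_rfl, integral_const_mul, integral_mu hV]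
    rfl
  have hfg : Integrable (fun x => (f : E n → ℝ) x * (g : E n → ℝ) x) (mu V) :=
    (MeasureTheory.Lp.memLp f).integrable_mul (MeasureTheory.Lp.memLp g)
  refine tendsto_of_subseq_tendsto fun ns hns => ?_
  obtain ⟨ms, hms, hae⟩ := (tendstoInMeasure_of_tendsto_Lp (hLp.comp hns)).exists_seq_tendsto_ae
  refine ⟨ms, ?_⟩
  rw [hI0]
  simp only [hI]
  refine tendsto_integral_of_dominated_convergence (fun x => M * |(f : E n → ℝ) x * (g : E n → ℝ) x|)
    (fun k => (h _).1.aestronglyMeasurable.mul hfg.1) (hfg.abs.const_mul M) (fun k => ?_) ?_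
  · filter_upwards [(mu_ac V).ae_le (h (ns (ms k))).2] with x hx
    rw [norm_mul, Real.norm_eq_abs, Real.norm_eq_abs]
    exact mul_le_mul_of_nonneg_right hx (abs_nonneg _)
  · have hall : ∀ᵐ x ∂(mu V), ∀ k, ((m1 (ns (ms k))).toLp (φ (ns (ms k))) : E n → ℝ) x = φ (ns (ms k)) x :=
      ae_all_iff.2 fun k => (m1 (ns (ms k))).coeFn_toLp
    filter_upwards [hae, hall, m0.coeFn_toLp] with x h1 h2 h3
    rw [h3] at h1
    refine Tendsto.mul_const _ (h1.congr fun k => ?_)
    exact h2 k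

end Vale.Agent.P245.H436
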