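import Vale.Agent.P245.H436.InstB
import Vale.Agent.P245.H895.QuadB

/-!
# P245, row INST (third copy, helper436), part C: the instance of `Abs` and `StmtK`
-/

set_option linter.all false

open MeasureTheory Filter Topology Set
open scoped NNReal ENNReal ContDiff
open Vale.Agent.P227.M Vale.Agent.P227.M.K814 Vale.Agent.P254.SN

namespace Vale.Agent.P245.H436

open Vale.Agent.P245.K
open Vale.Agent.P245.H464 (TE Lt mu mu_ac ac_mu memLp_iff inner_toLp integral_mu integrable_mu
  exists_meas)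

variable {n : ℕ} {V : E n → ℝ} {t : E n → Matrix (Fin n) (Fin n) ℝ} {c C : ℝ}

theorem ex_t (hB : Base V t c C) (hI : Iso V) (i j : Fin n) :
    Ex V (fun x => t x i j) = if i = j then 1 else 0 := by
  obtain ⟨c1, C1, hR⟩ := hB.reg
  have hp : ∀ b x, pd b (fun y : E n => y j) x = if j = b then 1 else 0 := fun b x => by
    rw [rpd_coord]
  have hcore := Vale.Agent.P245.Q895.core' hR hB.toTB (f := fun x : E n => x j) (ll_coord j)
    (Eventually.of_forall fun x => rad_diff_coord j x) (Vale.Agent.P245.Q895.PB.coord j)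
    (fun b => by
      have : pd b (fun y : E n => y j) = fun _ => if j = b then 1 else 0 := funext (hp b)
      rw [this]; exact Vale.Agent.P245.Q895.PB.const _) i
  have e : (fun x => Dt t i (fun y : E n => y j) x - x i * x j) = fun x => t x i j - x i * x j := by
    funext x
    unfold Dt
    simp [hp]
  rw [e, Vale.Agent.P245.Q895.I_sub' hR (Vale.Agent.P245.Q895.PB.of_gb (gb_t hB.toTB i j))
    ((Vale.Agent.P245.Q895.PB.coord i).mul (Vale.Agent.P245.Q895.PB.coord j))] at hcore
  have h2 := hI.2 i j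
  rw [← h2]
  unfold Ex
  congr 1
  have : I V (fun x => t x i j) = I V (fun x => x i * x j) := sub_eq_zero.1 hcore
  exact this

theorem int_BG (hV : Continuous V) {G : E n → Matrix (Fin n) (Fin n) ℝ} {M : ℝ}
    (h : ∀ i j, Bm (fun x => G x i j) M) {u v : Fin n → E n → ℝ}
    (hu : ∀ i, MemLp (u i) 2 (mu V)) (hv : ∀ i, MemLp (v i) 2 (mu V)) :
    Integrable (fun x => (∑ i, ∑ j, G x i j * u i x * v j x) * Real.exp (-V x)) := by
  have e : (fun x => (∑ i, ∑ j, G x i j * u i x * v j x) * Real.exp (-V x)) =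
      fun x => ∑ i, ∑ j, G x i j * u i x * v j x * Real.exp (-V x) := by
    funext x
    simp only [Finset.sum_mul]
  rw [e]
  exact integrable_finsetSum _ fun i _ => integrable_finsetSum _ fun j _ => int_mul hV (h i j) (hu i) (hv j)

theorem BG_sub (hV : Continuous V) {G G' A : E n → Matrix (Fin n) (Fin n) ℝ} {M M' r : ℝ}
    (h : ∀ i j, Bm (fun x => G x i j) M) (h' : ∀ i j, Bm (fun x => G' x i j) M')
    (hA : ∀ᵐ x, ∀ i j, A x i j = r * (G x i j - G' x i j))
    {u v : Fin n → E n → ℝ}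
    (hu : ∀ i, MemLp (u i) 2 (mu V)) (hv : ∀ i, MemLp (v i) 2 (mu V)) :
    BG V A u v = r * (BG V G u v - BG V G' u v) := by
  have h1 : BG V A u v = ∫ x, r * ((∑ i, ∑ j, G x i j * u i x * v j x) * Real.exp (-V x) -
      (∑ i, ∑ j, G' x i j * u i x * v j x) * Real.exp (-V x)) := by
    unfold BG I
    refine integral_congr_ae ?_
    filter_upwards [hA] with x hx
    simp only [hx]
    have : ∑ i, ∑ j, r * (G x i j - G' x i j) * u i x * v j x =
        r * ((∑ i, ∑ j, G x i j * u i x * v j x) - ∑ i, ∑ j, G' x i j * u i x * v j x) := by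
      rw [← Finset.sum_sub_distrib, Finset.mul_sum]
      refine Finset.sum_congr rfl fun i _ => ?_
      rw [← Finset.sum_sub_distrib, Finset.mul_sum]
      exact Finset.sum_congr rfl fun j _ => by ring
    rw [this]; ring
  rw [h1, integral_const_mul, integral_sub (int_BG hV h hu hv) (int_BG hV h' hu hv)]
  rfl

theorem BG_mono (hV : Continuous V) {G G' : E n → Matrix (Fin n) (Fin n) ℝ} {M M' r : ℝ}
    (h : ∀ i j, Bm (fun x => G x i j) M) (h' : ∀ i j, Bm (fun x => G' x i j) M')
    (hA : Mle G (fun x => r • G' x))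
    {u : Fin n → E n → ℝ} (hu : ∀ i, MemLp (u i) 2 (mu V)) :
    BG V G u u ≤ r * BG V G' u u := by
  unfold BG I
  rw [← integral_const_mul]
  refine integral_mono_ae (int_BG hV h hu hu) ((int_BG hV h' hu hu).const_mul r) ?_
  filter_upwards [hA] with x hx
  have h1 := hx fun i => u i x
  have e : ∑ i, ∑ j, (r • G' x) i j * u i x * u j x = r * ∑ i, ∑ j, G' x i j * u i x * u j x := by
    rw [Finset.mul_sum]
    refine Finset.sum_congr rfl fun i _ => ?_
    rw [Finset.mul_sum]
    refine Finset.sum_congr rfl fun j _ => ?_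
    rw [Matrix.smul_apply, smul_eq_mul]; ring
  rw [e] at h1
  calc _ ≤ (r * ∑ i, ∑ j, G' x i j * u i x * u j x) * Real.exp (-V x) :=
        mul_le_mul_of_nonneg_right h1 (Real.exp_pos _).le
    _ = _ := by ring

theorem TM_norm (hV : Continuous V) {φ : E n → ℝ} {M : ℝ} (h : Bm φ M)
    (f : MeasureTheory.Lp ℝ 2 (mu V)) : ‖TM V hV h f‖ ≤ M * ‖f‖ := by
  refine MeasureTheory.Lp.norm_le_mul_norm_of_ae_le_mul ?_
  filter_upwards [(mu_ac V).ae_eq (TM_ae hV h (f := f) ae_eq_rfl), (mu_ac V).ae_le h.2] with x e1 e2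
  rw [e1, norm_mul]
  exact mul_le_mul_of_nonneg_right e2 (norm_nonneg _)

/-- the subspace of mean zero -/
noncomputable def H0 (V : E n → ℝ) (h1 : MemLp (fun _ : E n => (1 : ℝ)) 2 (mu V)) :
    Submodule ℝ (HH V) where
  carrier := {x | ∀ i, inner ℝ (h1.toLp _) (x i) = 0}
  add_mem' := fun {a b} ha hb i => by
    have : (a + b) i = a i + b i := rfl
    rw [this, inner_add_right, ha i, hb i, add_zero]
  zero_mem' := fun i => by
    have : (0 : HH V) i = 0 := rfl
    rw [this, inner_zero_right]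
  smul_mem' := fun r a ha i => by
    have : (r • a) i = r • a i := rfl
    rw [this, real_inner_smul_right, ha i, mul_zero]

theorem H0_closed (h1 : MemLp (fun _ : E n => (1 : ℝ)) 2 (mu V)) : IsClosed (H0 V h1 : Set (HH V)) := by
  have e : (H0 V h1 : Set (HH V)) = ⋂ i, {x | inner ℝ (h1.toLp _) (prj V i x) = 0} := by
    ext x
    simp only [Set.mem_iInter, Set.mem_setOf_eq]
    rfl
  rw [e]
  refine isClosed_iInter fun i => ?_
  exact isClosed_eq (continuous_const.inner (prj V i).continuous) continuous_const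

theorem mf_psd {G : E n → Matrix (Fin n) (Fin n) ℝ} {DG : Fin n → E n → Matrix (Fin n) (Fin n) ℝ}
    {δ B : ℝ} (h : MF V G DG δ B) : ∀ᵐ x, ∀ v : Fin n → ℝ, 0 ≤ ∑ i, ∑ j, G x i j * v i * v j := by
  filter_upwards [h.low] with x hx v
  refine le_trans ?_ (hx v)
  have := h.d_pos
  positivity

theorem KG_nonneg (hB : Base V t c C) {G : E n → Matrix (Fin n) (Fin n) ℝ}
    (h : ∀ᵐ x, ∀ v : Fin n → ℝ, 0 ≤ ∑ i, ∑ j, G x i j * v i * v j) (D : Fin n → Fin n → E n → ℝ) :
    0 ≤ KG V t G D D := by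
  unfold KG I
  refine integral_nonneg_of_ae ?_
  filter_upwards [h] with x hx
  refine mul_nonneg ?_ (Real.exp_pos _).le
  exact psd_kron (hB.symm x) (base_psd hB x) hx (fun i a => D i a x)

end Vale.Agent.P245.H436
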