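import Vale.Agent.P245.K.Iface

/-!
# P245, row INST (third copy, helper436): abstract resolvent family of a positive symmetric relation
-/

set_option linter.all false

open MeasureTheory Filter Topology Set
open scoped NNReal ENNReal ContDiff

namespace Vale.Agent.P245.H436

/-- a total symmetric nonnegative linear relation -/
structure Rel {H : Type} [NormedAddCommGroup H] [InnerProductSpace ℝ H] (G : H → H → Prop) : Prop where
  lin : ∀ z y z' y', G z y → G z' y' → ∀ p q : ℝ, G (p • z + q • z') (p • y + q • y')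
  mono : ∀ z y, G z y → 0 ≤ inner ℝ y z
  symm : ∀ z y z' y', G z y → G z' y' → inner ℝ y z' = inner ℝ z y'
  total : ∀ s : ℝ, 0 < s → ∀ g, ∃ z y, G z y ∧ z + s • y = g
  uniq : ∀ y, G 0 y → y = 0

namespace Rel

variable {H : Type} [NormedAddCommGroup H] [InnerProductSpace ℝ H] {G : H → H → Prop}

theorem contr (h : Rel G) {s : ℝ} (hs : 0 < s) {z y : H} (hz : G z y) : ‖z‖ ≤ ‖z + s • y‖ := by
  have h1 : ‖z + s • y‖ ^ 2 = ‖z‖ ^ 2 + 2 * inner ℝ z (s • y) + ‖s • y‖ ^ 2 := norm_add_sq_real _ _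
  have h2 : 0 ≤ inner ℝ z (s • y) := by
    rw [real_inner_smul_right, real_inner_comm]
    exact mul_nonneg hs.le (h.mono z y hz)
  have h3 : ‖z‖ ^ 2 ≤ ‖z + s • y‖ ^ 2 := by
    rw [h1]; nlinarith [sq_nonneg ‖s • y‖]
  exact (pow_le_pow_iff_left₀ (norm_nonneg _) (norm_nonneg _) two_ne_zero).1 h3

theorem sub (h : Rel G) {z y z' y' : H} (h1 : G z y) (h2 : G z' y') : G (z - z') (y - y') := by
  have := h.lin _ _ _ _ h1 h2 1 (-1)
  simpa [sub_eq_add_neg] using this

theorem uniq' (h : Rel G) {s : ℝ} (hs : 0 < s) {z y z' y' : H} (h1 : G z y) (h2 : G z' y')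
    (he : z + s • y = z' + s • y') : z = z' := by
  have h3 := h.contr hs (h.sub h1 h2)
  have h4 : (z - z') + s • (y - y') = 0 := by
    rw [smul_sub]
    have : z - z' + (s • y - s • y') = (z + s • y) - (z' + s • y') := by abel
    rw [this, he, sub_self]
  rw [h4, norm_zero] at h3
  exact sub_eq_zero.1 (norm_le_zero_iff.1 h3)

/-- the resolvent, as a function -/
noncomputable def jf (h : Rel G) (s : ℝ) (g : H) : H :=
  open Classical in if hs : 0 < s then (h.total s hs g).choose else 0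

theorem jf_spec (h : Rel G) {s : ℝ} (hs : 0 < s) (g : H) : G (h.jf s g) (s⁻¹ • (g - h.jf s g)) := by
  unfold jf
  rw [dif_pos hs]
  obtain ⟨y, h1, h2⟩ := (h.total s hs g).choose_spec
  have h3 : s⁻¹ • (g - (h.total s hs g).choose) = y := by
    nth_rewrite 1 [← h2]
    rw [add_sub_cancel_left, smul_smul, inv_mul_cancel₀ hs.ne', one_smul]
  rw [h3]; exact h1

theorem jf_eq (h : Rel G) {s : ℝ} (hs : 0 < s) {z y : H} (hz : G z y) : h.jf s (z + s • y) = z := by
  refine h.uniq' hs (h.jf_spec hs _) hz ?_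
  rw [smul_smul, mul_inv_cancel₀ hs.ne', one_smul]
  abel

/-- the resolvent -/
noncomputable def J (h : Rel G) (s : ℝ) : H →L[ℝ] H :=
  open Classical in
  if hs : 0 < s then
    LinearMap.mkContinuous
      { toFun := h.jf s
        map_add' := fun x y => by
          have h1 := h.lin _ _ _ _ (h.jf_spec hs x) (h.jf_spec hs y) 1 1
          simp only [one_smul] at h1
          have h2 := h.jf_eq hs h1
          rw [← h2]
          congr 1
          rw [smul_add, smul_smul, smul_smul, mul_inv_cancel₀ hs.ne', one_smul, one_smul]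
          abel
        map_smul' := fun r x => by
          have h1 := h.lin _ _ _ _ (h.jf_spec hs x) (h.jf_spec hs x) r 0
          simp only [zero_smul, add_zero] at h1
          have h2 := h.jf_eq hs h1
          rw [RingHom.id_apply, ← h2]
          congr 1
          have e : s • r • s⁻¹ • (x - h.jf s x) = r • (x - h.jf s x) := by
            rw [smul_smul, smul_smul]
            congr 1
            field_simp
          rw [e, smul_sub]
          abel } 1 (fun x => by
          rw [one_mul]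
          have h1 := h.contr hs (h.jf_spec hs x)
          rw [smul_smul, mul_inv_cancel₀ hs.ne', one_smul, add_sub_cancel] at h1
          exact h1)
  else 0

theorem J_apply (h : Rel G) {s : ℝ} (hs : 0 < s) (x : H) : h.J s x = h.jf s x := by
  unfold J
  rw [dif_pos hs]
  rfl

theorem J_spec (h : Rel G) {s : ℝ} (hs : 0 < s) (g : H) : G (h.J s g) (s⁻¹ • (g - h.J s g)) := by
  rw [J_apply h hs]; exact h.jf_spec hs g

theorem J_eq (h : Rel G) {s : ℝ} (hs : 0 < s) {z y : H} (hz : G z y) : h.J s (z + s • y) = z := by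
  rw [J_apply h hs]; exact h.jf_eq hs hz

theorem J_one (h : Rel G) {z y : H} : h.J 1 (z + y) = z ↔ G z y := by
  constructor
  · intro h1
    have h2 := h.J_spec one_pos (z + y)
    rw [h1, inv_one, one_smul, add_sub_cancel_left] at h2
    exact h2
  · intro h1
    have h2 := h.J_eq one_pos h1
    rwa [one_smul] at h2

theorem J_norm (h : Rel G) {s : ℝ} (hs : 0 < s) (x : H) : ‖h.J s x‖ ≤ ‖x‖ := by
  have h1 := h.contr hs (h.J_spec hs x)
  rw [smul_smul, mul_inv_cancel₀ hs.ne', one_smul, add_sub_cancel] at h1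
  exact h1

theorem J_sym (h : Rel G) {s : ℝ} (hs : 0 < s) (x y : H) :
    inner ℝ (h.J s x) y = inner ℝ x (h.J s y) := by
  have hx := h.J_spec hs x
  have hy := h.J_spec hs y
  have h1 := h.symm _ _ _ _ hx hy
  have h2 : y = h.J s y + s • (s⁻¹ • (y - h.J s y)) := by
    rw [smul_smul, mul_inv_cancel₀ hs.ne', one_smul, add_sub_cancel]
  have h3 : x = h.J s x + s • (s⁻¹ • (x - h.J s x)) := by
    rw [smul_smul, mul_inv_cancel₀ hs.ne', one_smul, add_sub_cancel]
  have e1 : inner ℝ (h.J s x) y = inner ℝ (h.J s x) (h.J s y) +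
      s * inner ℝ (h.J s x) (s⁻¹ • (y - h.J s y)) := by
    rw [← real_inner_smul_right, ← inner_add_right, ← h2]
  have e2 : inner ℝ x (h.J s y) = inner ℝ (h.J s x) (h.J s y) +
      s * inner ℝ (s⁻¹ • (x - h.J s x)) (h.J s y) := by
    rw [← real_inner_smul_left, ← inner_add_left, ← h3]
  rw [e1, e2, h1]

theorem dense_dom [CompleteSpace H] (h : Rel G) (x : H) (ε : ℝ) (hε : 0 < ε) :
    ∃ z y, G z y ∧ ‖x - z‖ < ε := by
  let D : Submodule ℝ H :=
    { carrier := {z | ∃ y, G z y}
      add_mem' := by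
        rintro a b ⟨y, hy⟩ ⟨y', hy'⟩
        exact ⟨y + y', by simpa using h.lin _ _ _ _ hy hy' 1 1⟩
      zero_mem' := by
        obtain ⟨z, y, h1, -⟩ := h.total 1 one_pos 0
        exact ⟨0, by simpa using h.lin _ _ _ _ h1 h1 0 0⟩
      smul_mem' := by
        rintro r a ⟨y, hy⟩
        exact ⟨r • y, by simpa using h.lin _ _ _ _ hy hy r 0⟩ }
  have h1 : D.topologicalClosure = ⊤ := by
    rw [Submodule.topologicalClosure_eq_top_iff, Submodule.eq_bot_iff]
    intro g hg
    rw [Submodule.mem_orthogonal'] at hg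
    obtain ⟨z, y, hz, he⟩ := h.total 1 one_pos g
    rw [one_smul] at he
    have h2 := hg z ⟨y, hz⟩
    rw [← he, inner_add_left, real_inner_self_eq_norm_sq] at h2
    have h3 := h.mono z y hz
    have h4 : ‖z‖ ^ 2 = 0 := by nlinarith [sq_nonneg ‖z‖]
    have h5 : z = 0 := norm_eq_zero.1 (pow_eq_zero_iff two_ne_zero |>.1 h4)
    subst h5
    rw [← he, h.uniq y hz, add_zero]
  have h2 : x ∈ closure (D : Set H) := by
    have : x ∈ D.topologicalClosure := by rw [h1]; trivial
    exact this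
  obtain ⟨z, ⟨y, hz⟩, hd⟩ := Metric.mem_closure_iff.1 h2 ε hε
  exact ⟨z, y, hz, by rwa [dist_eq_norm] at hd⟩

theorem J_tendsto [CompleteSpace H] (h : Rel G) (x : H) :
    Tendsto (fun m : ℕ => h.J (1 / ((m : ℝ) + 1)) x) atTop (𝓝 x) := by
  rw [Metric.tendsto_atTop]
  intro ε hε
  obtain ⟨z, y, hz, hd⟩ := h.dense_dom x (ε / 3) (by positivity)
  obtain ⟨N, hN⟩ := exists_nat_gt (‖y‖ / (ε / 3))
  refine ⟨N, fun m hm => ?_⟩
  have hs : 0 < 1 / ((m : ℝ) + 1) := by positivity
  set s : ℝ := 1 / ((m : ℝ) + 1) with hsd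
  have h1 : h.J s z - z = - (s • h.J s y) := by
    have h2 := h.J_eq hs hz
    rw [map_add, map_smul] at h2
    rw [← sub_eq_zero] at h2
    have : h.J s z - z + s • h.J s y = 0 := by rw [← h2]; abel
    exact eq_neg_of_add_eq_zero_left this
  have h2 : h.J s x - x = h.J s (x - z) + (h.J s z - z) - (x - z) := by
    rw [map_sub]; abel
  have h3 : ‖h.J s x - x‖ ≤ ‖x - z‖ + s * ‖y‖ + ‖x - z‖ := by
    rw [h2]
    refine (norm_sub_le _ _).trans (add_le_add ?_ le_rfl)
    refine (norm_add_le _ _).trans (add_le_add (h.J_norm hs _) ?_)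
    rw [h1, norm_neg, norm_smul, Real.norm_eq_abs, abs_of_pos hs]
    exact mul_le_mul_of_nonneg_left (h.J_norm hs _) hs.le
  have h4 : s * ‖y‖ < ε / 3 := by
    have h5 : ‖y‖ < (m + 1) * (ε / 3) := by
      rw [div_lt_iff₀ (by positivity)] at hN
      have : (N : ℝ) ≤ m := by exact_mod_cast hm
      nlinarith
    rw [hsd, one_div, inv_mul_lt_iff₀ (by positivity)]
    exact h5
  rw [dist_eq_norm]
  linarith

end Rel

end Vale.Agent.P245.H436
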